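import Mathlib

/-!
Finite matroid intersection (rank form), proved by induction on the size of the ground set,
following the classical deletion/contraction argument.
-/

open Set Matroid

namespace Vale.Agent.Lib.P068

variable {α : Type*}

/-- rank in a one-element contraction -/
lemma eRk_contractElem_add_one (M : Matroid α) {e : α} (he : M.IsNonloop e) (Y : Set α)
    (heY : e ∉ Y) : (M ／ {e}).eRk Y + 1 = M.eRk (insert e Y) := by
  obtain ⟨I, hI⟩ := (M ／ {e}).exists_isBasis' Y
  have hI' : (M ／ {e}).IsBasis I (Y ∩ (M ／ {e}).E) := hI.isBasis_inter_ground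
  have h2 := he.indep.union_isBasis_union_of_contract_isBasis hI'
  have heI : e ∉ I := fun h => heY (hI.subset h)
  rw [← hI.encard_eq_eRk]
  have h3 : M.eRk (insert e Y) = M.eRk (Y ∩ (M ／ {e}).E ∪ {e}) := by
    rw [← M.eRk_inter_ground (insert e Y), ← M.eRk_inter_ground (Y ∩ (M ／ {e}).E ∪ {e})]
    congr 1
    ext x
    simp only [Matroid.contract_ground, mem_inter_iff, mem_insert_iff, mem_union, mem_sdiff,
      mem_singleton_iff]
    constructor
    · rintro ⟨rfl | hx, hxE⟩
      · exact ⟨Or.inr rfl, hxE⟩
      · by_cases hxe : x = e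
        · exact ⟨Or.inr hxe, hxE⟩
        · exact ⟨Or.inl ⟨hx, hxE, hxe⟩, hxE⟩
    · rintro ⟨⟨hx, -, -⟩ | rfl, hxE⟩
      · exact ⟨Or.inr hx, hxE⟩
      · exact ⟨Or.inl rfl, hxE⟩
  rw [h3, ← h2.encard_eq_eRk, union_singleton, encard_insert_of_notMem heI]

/-- an arithmetic fact about extended naturals used below -/
lemma enat_aux (k : ℕ) (p1 p2 q1 q2 x z a b : ℕ∞) (k1 : (k : ℕ∞) ≤ p1 + q1)
    (k2 : (k : ℕ∞) ≤ p2 + q2) (sM : p1 + p2 ≤ x + (a + 1)) (sN : q2 + q1 ≤ z + (b + 1))
    (hXlt : x + z < k) (hYlt : a + b + 1 < k) : False := by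
  have hx : x ≠ ⊤ := fun h => by simp [h] at hXlt
  have hz : z ≠ ⊤ := fun h => by simp [h] at hXlt
  have ha : a ≠ ⊤ := fun h => by simp [h] at hYlt
  have hb : b ≠ ⊤ := fun h => by simp [h] at hYlt
  lift x to ℕ using hx
  lift z to ℕ using hz
  lift a to ℕ using ha
  lift b to ℕ using hb
  have hp1 : p1 ≠ ⊤ := fun h => by
    rw [h] at sM
    simp at sM
  have hp2 : p2 ≠ ⊤ := fun h => by
    rw [h] at sM
    simp at sM
  have hq1 : q1 ≠ ⊤ := fun h => by
    rw [h] at sN
    simp at sN
  have hq2 : q2 ≠ ⊤ := fun h => by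
    rw [h] at sN
    simp at sN
  lift p1 to ℕ using hp1
  lift p2 to ℕ using hp2
  lift q1 to ℕ using hq1
  lift q2 to ℕ using hq2
  norm_cast at *
  omega

/-- rank in a one-element deletion -/
lemma eRk_deleteElem (M : Matroid α) (e : α) (X : Set α) (hX : X ⊆ M.E \ {e}) :
    (M ＼ {e}).eRk X = M.eRk X := by
  rw [delete_eq_restrict, restrict_eRk_eq _ hX]

/-- The key step of finite matroid intersection: if every set `X` has
`k ≤ r_M(X) + r_N(E - X)` then there is a common independent set of size at least `k`. -/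
theorem exists_common_indep_of_forall_le (n : ℕ) :
    ∀ (M N : Matroid α), M.E = N.E → M.E.Finite → M.E.ncard = n → ∀ k : ℕ,
      (∀ X ⊆ M.E, (k : ℕ∞) ≤ M.eRk X + N.eRk (M.E \ X)) →
      ∃ I, M.Indep I ∧ N.Indep I ∧ (k : ℕ∞) ≤ I.encard := by
  induction n using Nat.strong_induction_on with
  | _ n ih =>
  intro M N hE hfin hn k hk
  by_cases hcommon : ∃ e, M.IsNonloop e ∧ N.IsNonloop e
  · obtain ⟨e, heM, heN⟩ := hcommon
    have heE : e ∈ M.E := heM.mem_ground
    have hcard : (M.E \ {e}).ncard < n := by
      rw [← hn]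
      exact ncard_sdiff_singleton_lt_of_mem heE hfin
    have hfin' : (M.E \ {e}).Finite := hfin.subset sdiff_subset
    by_cases hdel : ∀ X ⊆ M.E \ {e}, (k : ℕ∞) ≤ M.eRk X + N.eRk ((M.E \ {e}) \ X)
    · -- deletion case
      obtain ⟨I, hIM, hIN, hIk⟩ := ih _ hcard (M ＼ {e}) (N ＼ {e})
        (by simp [hE]) (by simpa using hfin') rfl k (by
          intro X hX
          rw [delete_ground] at hX ⊢
          rw [eRk_deleteElem M e X hX, eRk_deleteElem N e _ (by rw [← hE]; exact sdiff_subset)]
          exact hdel X hX)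
      exact ⟨I, hIM.of_delete, hIN.of_delete, hIk⟩
    · push Not at hdel
      obtain ⟨X, hX, hXlt⟩ := hdel
      by_cases hcon : ∀ Y ⊆ M.E \ {e},
          (k : ℕ∞) ≤ (M ／ {e}).eRk Y + (N ／ {e}).eRk ((M.E \ {e}) \ Y) + 1
      · -- contraction case
        have hk1 : 1 ≤ k := by
          by_contra hk0
          have : k = 0 := by omega
          subst this
          simp at hXlt
        obtain ⟨I, hIM, hIN, hIk⟩ := ih _ hcard (M ／ {e}) (N ／ {e})
          (by simp [hE]) (by simpa using hfin') rfl (k - 1) (by
            intro Y hY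
            rw [contract_ground] at hY ⊢
            have := hcon Y hY
            have h1 : ((k - 1 : ℕ) : ℕ∞) + 1 = k := by
              norm_cast
              omega
            rw [← h1] at this
            exact (ENat.add_le_add_iff_right (by simp)).1 this)
        rw [heM.contractElem_indep_iff] at hIM
        rw [heN.contractElem_indep_iff] at hIN
        refine ⟨insert e I, hIM.2, hIN.2, ?_⟩
        rw [encard_insert_of_notMem hIM.1]
        have h1 : ((k - 1 : ℕ) : ℕ∞) + 1 = k := by
          norm_cast
          omega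
        rw [← h1]
        gcongr
      · -- both fail: contradiction with submodularity
        exfalso
        push Not at hcon
        obtain ⟨Y, hY, hYlt⟩ := hcon
        have heX : e ∉ X := fun h => (hX h).2 rfl
        have heY : e ∉ Y := fun h => (hY h).2 rfl
        have hXE : X ⊆ M.E := hX.trans sdiff_subset
        have hYE : Y ⊆ M.E := hY.trans sdiff_subset
        have heY' : e ∉ (M.E \ {e}) \ Y := fun h => h.1.2 rfl
        rw [add_assoc, ← add_assoc _ _ (1 : ℕ∞)] at hYlt
        have hM := eRk_contractElem_add_one M heM Y heY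
        have hN := eRk_contractElem_add_one N heN _ heY'
        have hins : insert e ((M.E \ {e}) \ Y) = M.E \ Y := by
          ext x
          simp only [mem_insert_iff, mem_sdiff, mem_singleton_iff]
          constructor
          · rintro (rfl | ⟨⟨h1, -⟩, h3⟩)
            · exact ⟨heE, heY⟩
            · exact ⟨h1, h3⟩
          · rintro ⟨h1, h2⟩
            by_cases hxe : x = e
            · exact Or.inl hxe
            · exact Or.inr ⟨⟨h1, hxe⟩, h2⟩
        rw [hins] at hN
        -- submodularity for M
        have sM := M.eRk_inter_add_eRk_union_le X (insert e Y)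
        have sN := N.eRk_inter_add_eRk_union_le ((M.E \ {e}) \ X) (M.E \ Y)
        have e1 : X ∩ insert e Y = X ∩ Y := by
          ext x
          simp only [mem_inter_iff, mem_insert_iff]
          constructor
          · rintro ⟨hx, rfl | hy⟩
            · exact absurd hx heX
            · exact ⟨hx, hy⟩
          · rintro ⟨hx, hy⟩
            exact ⟨hx, Or.inr hy⟩
        have e2 : ((M.E \ {e}) \ X) ∩ (M.E \ Y) = M.E \ (X ∪ insert e Y) := by
          ext x
          simp only [mem_inter_iff, mem_sdiff, mem_singleton_iff, mem_union, mem_insert_iff]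
          tauto
        have e3 : ((M.E \ {e}) \ X) ∪ (M.E \ Y) = M.E \ (X ∩ Y) := by
          ext x
          simp only [mem_inter_iff, mem_sdiff, mem_singleton_iff, mem_union]
          constructor
          · rintro (⟨⟨h1, -⟩, h3⟩ | ⟨h1, h2⟩)
            · exact ⟨h1, fun h => h3 h.1⟩
            · exact ⟨h1, fun h => h2 h.2⟩
          · rintro ⟨h1, h2⟩
            by_cases hxY : x ∈ Y
            · have hxX : x ∉ X := fun h => h2 ⟨h, hxY⟩
              have hxe : x ≠ e := fun h => heY (h ▸ hxY)
              exact Or.inl ⟨⟨h1, hxe⟩, hxX⟩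
            · exact Or.inr ⟨h1, hxY⟩
        rw [e1] at sM
        rw [e2, e3] at sN
        have k1 := hk (X ∩ Y) (inter_subset_left.trans hXE)
        have k2 := hk (X ∪ insert e Y) (union_subset hXE (insert_subset heE hYE))
        rw [← hM] at sM
        rw [← hN] at sN
        exact enat_aux k _ _ _ _ _ _ _ _ k1 k2 sM sN hXlt hYlt
  · -- no common nonloop
    push Not at hcommon
    have h0 := hk M.loops M.loops_subset_ground
    have h1 : N.eRk (M.E \ M.loops) = 0 := by
      rw [eRk_eq_zero_iff (by rw [hE]; exact sdiff_subset)]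
      intro x hx
      by_contra hxN
      have hxN' : N.IsNonloop x := by
        rw [← not_isLoop_iff (by rw [← hE]; exact hx.1)]
        exact hxN
      have hxM' : M.IsNonloop x := by
        rw [← not_isLoop_iff hx.1]
        exact hx.2
      exact hcommon x hxM' hxN'
    rw [eRk_loops, h1, add_zero] at h0
    exact ⟨∅, M.empty_indep, N.empty_indep, by simpa using h0⟩

end Vale.Agent.Lib.P068
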