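import Mathlib
import Vale.Agent.Lib.P068.FiniteInter

/-!
From finite matroid intersection to pairs of (possibly infinite) matroids whose common
independent sets have bounded size, by a finite compactness argument.
-/

open Set Matroid

namespace Vale.Agent.Lib.P068

variable {α : Type*}

/-- Finite ground set: a maximum common independent set `J` is matched by a cover. -/
theorem exists_cover_le (M N : Matroid α) (hE : M.E = N.E) (hfin : M.E.Finite) (J : Set α)
    (hJfin : J.Finite) (hmax : ∀ I, M.Indep I → N.Indep I → I.encard ≤ J.encard) :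
    ∃ X ⊆ M.E, M.eRk X + N.eRk (M.E \ X) ≤ J.encard := by
  by_contra h
  push Not at h
  obtain ⟨I, hIM, hIN, hIk⟩ := exists_common_indep_of_forall_le _ M N hE hfin rfl (J.ncard + 1)
    (by
      intro X hX
      have h1 := h X hX
      rw [← hJfin.cast_ncard_eq] at h1
      have h2 := Order.add_one_le_of_lt h1
      exact_mod_cast h2)
  have h3 := hmax I hIM hIN
  rw [← hJfin.cast_ncard_eq] at h3
  have h4 := hIk.trans h3
  have h5 : J.ncard + 1 ≤ J.ncard := by exact_mod_cast h4
  omega

/-- Finite ground set: a maximum common independent set `J` splits along some `X` into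
an `M`-spanning part of `X` and an `N`-spanning part of the complement. -/
theorem exists_split_finite (M N : Matroid α) (hE : M.E = N.E) (hfin : M.E.Finite) (J : Set α)
    (hJM : M.Indep J) (hJN : N.Indep J) (hJfin : J.Finite)
    (hmax : ∀ I, M.Indep I → N.Indep I → I.encard ≤ J.encard) :
    ∃ X ⊆ M.E, X ⊆ M.closure (J ∩ X) ∧ M.E \ X ⊆ N.closure (J \ X) := by
  obtain ⟨X, hX, hle⟩ := exists_cover_le M N hE hfin J hJfin hmax
  refine ⟨X, hX, ?_, ?_⟩
  · have hI : M.Indep (J ∩ X) := hJM.subset inter_subset_left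
    have h1 : (J ∩ X).encard ≤ M.eRk X := hI.encard_le_eRk_of_subset inter_subset_right
    have hI2 : N.Indep (J \ X) := hJN.subset sdiff_subset
    have h2 : (J \ X).encard ≤ N.eRk (M.E \ X) :=
      hI2.encard_le_eRk_of_subset (sdiff_subset_sdiff_left hJM.subset_ground)
    have h3 : (J ∩ X).encard + (J \ X).encard = J.encard := by rw [add_comm]; exact encard_sdiff_add_encard_inter J X
    have hfin1 : (J ∩ X).Finite := hJfin.subset inter_subset_left
    have hfin2 : (J \ X).Finite := hJfin.subset sdiff_subset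
    have h4 : M.eRk X ≤ (J ∩ X).encard := by
      rw [← h3] at hle
      rw [← hfin1.cast_ncard_eq, ← hfin2.cast_ncard_eq] at *
      generalize M.eRk X = a at *
      generalize N.eRk (M.E \ X) = b at *
      have ha : a ≠ ⊤ := fun h => by simp [h] at hle
      have hb : b ≠ ⊤ := fun h => by simp [h] at hle
      lift a to ℕ using ha
      lift b to ℕ using hb
      norm_cast at *
      omega
    have hB : M.IsBasis (J ∩ X) X :=
      hI.isBasis_of_eRk_ge hfin1 inter_subset_right (by rwa [hI.eRk_eq_encard])
    exact hB.subset_closure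
  · have hI : M.Indep (J ∩ X) := hJM.subset inter_subset_left
    have h1 : (J ∩ X).encard ≤ M.eRk X := hI.encard_le_eRk_of_subset inter_subset_right
    have hI2 : N.Indep (J \ X) := hJN.subset sdiff_subset
    have hsub : J \ X ⊆ M.E \ X := sdiff_subset_sdiff_left hJM.subset_ground
    have h2 : (J \ X).encard ≤ N.eRk (M.E \ X) := hI2.encard_le_eRk_of_subset hsub
    have h3 : (J ∩ X).encard + (J \ X).encard = J.encard := by rw [add_comm]; exact encard_sdiff_add_encard_inter J X
    have hfin1 : (J ∩ X).Finite := hJfin.subset inter_subset_left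
    have hfin2 : (J \ X).Finite := hJfin.subset sdiff_subset
    have h4 : N.eRk (M.E \ X) ≤ (J \ X).encard := by
      rw [← h3] at hle
      rw [← hfin1.cast_ncard_eq, ← hfin2.cast_ncard_eq] at *
      generalize M.eRk X = a at *
      generalize N.eRk (M.E \ X) = b at *
      have ha : a ≠ ⊤ := fun h => by simp [h] at hle
      have hb : b ≠ ⊤ := fun h => by simp [h] at hle
      lift a to ℕ using ha
      lift b to ℕ using hb
      norm_cast at *
      omega
    have hB : N.IsBasis (J \ X) (M.E \ X) :=
      hI2.isBasis_of_eRk_ge hfin2 hsub (by rwa [hI2.eRk_eq_encard])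
        (by rw [← hE]; exact sdiff_subset)
    exact hB.subset_closure

/-- Arbitrary ground set: a finite maximum common independent set `J` can be split into two
parts whose closures (in `M` and in `N`) cover the ground set. -/
theorem exists_split (M N : Matroid α) (hE : M.E = N.E) (J : Set α)
    (hJM : M.Indep J) (hJN : N.Indep J) (hJfin : J.Finite)
    (hmax : ∀ I, M.Indep I → N.Indep I → I.encard ≤ J.encard) :
    ∃ A ⊆ J, M.E ⊆ M.closure A ∪ N.closure (J \ A) := by
  by_contra h
  push Not at h
  have h' : ∀ A : Set α, ∃ e, A ⊆ J → e ∈ M.E ∧ e ∉ M.closure A ∪ N.closure (J \ A) := by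
    intro A
    by_cases hA : A ⊆ J
    · obtain ⟨e, he, he'⟩ := not_subset.1 (h A hA)
      exact ⟨e, fun _ => ⟨he, he'⟩⟩
    · obtain ⟨e, -, -⟩ := not_subset.1 hA
      exact ⟨e, fun hA' => absurd hA' hA⟩
  choose f hf using h'
  set F : Set α := J ∪ f '' (𝒫 J) with hF
  have hFfin : F.Finite := hJfin.union (hJfin.powerset.image f)
  have hFE : F ⊆ M.E := by
    apply union_subset hJM.subset_ground
    rintro _ ⟨A, hA, rfl⟩
    exact (hf A hA).1
  have hFE' : F ⊆ N.E := hE ▸ hFE
  have hJF : J ⊆ F := subset_union_left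
  obtain ⟨X, hX, hX1, hX2⟩ := exists_split_finite (M ↾ F) (N ↾ F) rfl hFfin J
    (by rw [restrict_indep_iff]; exact ⟨hJM, hJF⟩)
    (by rw [restrict_indep_iff]; exact ⟨hJN, hJF⟩) hJfin
    (by
      intro I hIM hIN
      rw [restrict_indep_iff] at hIM hIN
      exact hmax I hIM.1 hIN.1)
  rw [restrict_ground_eq] at hX hX2
  rw [restrict_closure_eq M (inter_subset_left.trans hJF) hFE] at hX1
  rw [restrict_closure_eq N (sdiff_subset.trans hJF) hFE'] at hX2
  have hA : J ∩ X ⊆ J := inter_subset_left
  obtain ⟨-, hfA⟩ := hf (J ∩ X) hA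
  have hfF : f (J ∩ X) ∈ F := Or.inr ⟨J ∩ X, hA, rfl⟩
  apply hfA
  by_cases hfX : f (J ∩ X) ∈ X
  · exact Or.inl (hX1 hfX).1
  · right
    rw [sdiff_self_inter]
    exact (hX2 ⟨hfF, hfX⟩).1

/-- If the common independent sets of `M` and `N` have bounded finite size, there is one of
maximum size. -/
theorem exists_max_common_indep (M N : Matroid α) (n : ℕ)
    (hb : ∀ I, M.Indep I → N.Indep I → I.encard ≤ n) :
    ∃ J, M.Indep J ∧ N.Indep J ∧ J.Finite ∧
      ∀ I, M.Indep I → N.Indep I → I.encard ≤ J.encard := by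
  induction n with
  | zero =>
    refine ⟨∅, M.empty_indep, N.empty_indep, finite_empty, fun I hIM hIN => ?_⟩
    have := hb I hIM hIN
    simpa using this
  | succ n ih =>
    by_cases h : ∀ I, M.Indep I → N.Indep I → I.encard ≤ n
    · exact ih h
    · push Not at h
      obtain ⟨J, hJM, hJN, hJ⟩ := h
      have hJle := hb J hJM hJN
      have hJfin : J.Finite := finite_of_encard_le_coe hJle
      refine ⟨J, hJM, hJN, hJfin, fun I hIM hIN => ?_⟩
      have h1 := hb I hIM hIN
      have h2 := Order.add_one_le_of_lt hJ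
      exact h1.trans (by exact_mod_cast h2)

/-- The matroid intersection property for pairs with bounded common independent sets. -/
theorem intersection_of_bounded (M N : Matroid α) (hE : M.E = N.E)
    (hb : ∃ n : ℕ, ∀ I, M.Indep I → N.Indep I → I.encard ≤ n) :
    ∃ JM JN : Set α, Disjoint JM JN ∧ M.Indep (JM ∪ JN) ∧ N.Indep (JM ∪ JN) ∧
      M.closure JM ∪ N.closure JN = M.E := by
  obtain ⟨n, hn⟩ := hb
  obtain ⟨J, hJM, hJN, hJfin, hmax⟩ := exists_max_common_indep M N n hn
  obtain ⟨A, hAJ, hA⟩ := exists_split M N hE J hJM hJN hJfin hmax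
  refine ⟨A, J \ A, disjoint_sdiff_right, ?_, ?_, ?_⟩
  · rwa [union_sdiff_cancel hAJ]
  · rwa [union_sdiff_cancel hAJ]
  · apply subset_antisymm _ hA
    apply union_subset (M.closure_subset_ground A)
    rw [hE]
    exact N.closure_subset_ground _

end Vale.Agent.Lib.P068
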