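import Mathlib

/-!
The matroid intersection property of a pair `(M, N)` follows from that of the dual pair.
-/

open Set Matroid

namespace Vale.Agent.Lib.P068

variable {α : Type*}

/-- If the dual pair `(M✶, N✶)` satisfies intersection, then so does `(M, N)`. -/
theorem intersection_of_dual (M N : Matroid α) (hE : M.E = N.E)
    (h : ∃ A B : Set α, Disjoint A B ∧ M✶.Indep (A ∪ B) ∧ N✶.Indep (A ∪ B) ∧
      M✶.closure A ∪ N✶.closure B = M✶.E) :
    ∃ JM JN : Set α, Disjoint JM JN ∧ M.Indep (JM ∪ JN) ∧ N.Indep (JM ∪ JN) ∧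
      M.closure JM ∪ N.closure JN = M.E := by
  obtain ⟨A, B, hAB, hJM, hJN, hcov⟩ := h
  rw [dual_ground] at hcov
  set P : Set α := M✶.closure A with hP
  set C : Set α := M.E \ P with hC
  have hPE : P ⊆ M.E := M✶.closure_subset_ground A
  have hAind : M✶.Indep A := hJM.subset subset_union_left
  have hBind : N✶.Indep B := hJN.subset subset_union_right
  have hAP : A ⊆ P := M✶.subset_closure A hAind.subset_ground
  have hA_basis : M✶.IsBasis A P := hAind.isBasis_closure
  have hBP : Disjoint P B := by
    rw [disjoint_left]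
    intro b hbP hbB
    have h1 := hJM.notMem_closure_sdiff_of_mem (Or.inr hbB : b ∈ A ∪ B)
    apply h1
    refine M✶.closure_subset_closure ?_ hbP
    intro a ha
    exact ⟨Or.inl ha, fun hab => (disjoint_left.1 hAB ha) (hab ▸ hbB)⟩
  have hBE : B ⊆ M.E := by
    have := hBind.subset_ground
    rw [dual_ground, ← hE] at this
    exact this
  have hBC : B ⊆ C := fun b hb => ⟨hBE hb, fun hbP => (disjoint_left.1 hBP hbP) hb⟩
  have hC_sub : C ⊆ N✶.closure B := by
    intro x hx
    have : x ∈ M✶.closure A ∪ N✶.closure B := by rw [hcov]; exact hx.1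
    rcases this with h1 | h1
    · exact absurd h1 hx.2
    · exact h1
  have hB_basis : N✶.IsBasis B C := hBind.isBasis_of_subset_of_subset_closure hBC hC_sub
  have hCE : C ⊆ M.E := sdiff_subset
  have hCP : Disjoint C P := disjoint_sdiff_left
  have hEC : M.E \ C = P := by rw [hC, sdiff_sdiff_cancel_left hPE]
  -- Claim 1
  have c1 : C ⊆ M.closure (C \ B) := by
    have h1 : (M✶ ／ P).Indep B := by
      rw [hA_basis.contract_indep_iff, union_comm]
      exact ⟨hJM, hBP⟩
    rw [← dual_delete] at h1
    have h2 : (M ＼ P).Spanning ((M ＼ P).E \ B) := Coindep.compl_spanning h1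
    have h3 := h2.closure_eq
    rw [delete_ground, delete_closure_eq] at h3
    intro x hx
    have hx' : x ∈ M.closure (((M.E \ P) \ B) \ P) \ P := by rw [h3]; exact hx
    exact M.closure_subset_closure sdiff_subset hx'.1
  -- Claim 2
  have c2 : P ⊆ N.closure (P \ A) := by
    have h1 : (N✶ ／ C).Indep A := by
      rw [hB_basis.contract_indep_iff]
      exact ⟨hJN, disjoint_of_subset_right hAP hCP⟩
    rw [← dual_delete] at h1
    have h2 : (N ＼ C).Spanning ((N ＼ C).E \ A) := Coindep.compl_spanning h1
    have h3 := h2.closure_eq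
    rw [delete_ground, delete_closure_eq, ← hE, hEC] at h3
    intro x hx
    have hx' : x ∈ N.closure ((P \ A) \ C) \ C := by rw [h3]; exact hx
    exact N.closure_subset_closure sdiff_subset hx'.1
  -- Claim 3
  have c3 : (N ／ P).Indep (C \ B) := by
    have h1 : (N✶ ↾ C).IsBase B := hB_basis.isBase_restrict
    have h2 : N✶ ↾ C = N✶ ＼ P := by
      rw [← delete_compl (by rw [dual_ground, ← hE]; exact hCE), dual_ground, ← hE, hEC]
    rw [h2] at h1
    have h3 := h1.compl_isBase_dual
    rw [dual_delete_dual, delete_ground, dual_ground, ← hE] at h3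
    exact h3.indep
  -- Claim 4
  have c4 : (M ／ C).Indep (P \ A) := by
    have h1 : (M✶ ↾ P).IsBase A := hA_basis.isBase_restrict
    have h2 : M✶ ↾ P = M✶ ＼ C := by
      rw [← delete_compl (by rw [dual_ground]; exact hPE), dual_ground, hC]
    rw [h2] at h1
    have h3 := h1.compl_isBase_dual
    rw [dual_delete_dual, delete_ground, dual_ground, hEC] at h3
    exact h3.indep
  obtain ⟨A', hA'⟩ := M.exists_isBasis (C \ B) (sdiff_subset.trans hCE)
  obtain ⟨B', hB'⟩ := N.exists_isBasis (P \ A) (sdiff_subset.trans (hE ▸ hPE))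
  have hA'C : A' ⊆ C := hA'.subset.trans sdiff_subset
  have hB'P : B' ⊆ P := hB'.subset.trans sdiff_subset
  have hCA' : C ⊆ M.closure A' := by rw [hA'.closure_eq_closure]; exact c1
  have hPB' : P ⊆ N.closure B' := by rw [hB'.closure_eq_closure]; exact c2
  have hA'_basis : M.IsBasis A' C := hA'.indep.isBasis_of_subset_of_subset_closure hA'C hCA'
  have hB'_basis : N.IsBasis B' P := hB'.indep.isBasis_of_subset_of_subset_closure hB'P hPB'
  refine ⟨A', B', disjoint_of_subset hA'C hB'P hCP, ?_, ?_, ?_⟩
  · have h1 : (M ／ C).Indep B' := c4.subset hB'.subset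
    rw [hA'_basis.contract_indep_iff, union_comm] at h1
    exact h1.1
  · have h1 : (N ／ P).Indep A' := c3.subset hA'.subset
    rw [hB'_basis.contract_indep_iff] at h1
    exact h1.1
  · apply subset_antisymm
    · apply union_subset (M.closure_subset_ground A')
      rw [hE]
      exact N.closure_subset_ground _
    · intro x hx
      by_cases hxP : x ∈ P
      · exact Or.inr (hPB' hxP)
      · exact Or.inl (hCA' ⟨hx, hxP⟩)

end Vale.Agent.Lib.P068
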